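import Vale.Agent.P032.R2.H616.Cont
import Vale.Agent.P032.Words6.H704.Gen6

/-!
# P032: a clean six-coloured point whose pairs are the diagonals of a pentagon: winding

`z` has six colours, all palettes on the unit circle about `z` have at most three colours, and the
broken pairs are diagonals `{c (m - 1), c (m + 1)}` of a pentagon, or the pair `{c 0, c 4}`.
The letter `m` (the pair `{c 0, c 4}` counts as `m = 1`) turns: in one turn of the circle the letters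
`m, m + 2 s, m + 4 s, .., m + 30 s` appear in this order, `s = 1` or `s = -1`.
-/

set_option autoImplicit false

open Set Filter Topology Metric

noncomputable section

namespace Vale.Agent.P032.R2.H616

open Vale.Agent.P032.Six Vale.Agent.P032.S5.H767 Vale.Agent.P032.Words6.H704

variable {U : Fin 6 → Set ℂ} {T : ℂ → Set (Fin 6)} {z : ℂ} {c : ZMod 5 → Fin 6}

/-- the palette `P` contains a broken pair with letter `m` -/
def Lt (T : ℂ → Set (Fin 6)) (z : ℂ) (c : ZMod 5 → Fin 6) (P : Set (Fin 6)) (m : ZMod 5) : Prop :=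
  (MC T z (c (m - 1)) (c (m + 1)) ∧ c (m - 1) ∈ P ∧ c (m + 1) ∈ P) ∨
    (m = 1 ∧ MC T z (c 0) (c 4) ∧ c 0 ∈ P ∧ c 4 ∈ P)

theorem Lt.mono {P Q : Set (Fin 6)} {m : ZMod 5} (h : Lt T z c P m) (hPQ : P ⊆ Q) :
    Lt T z c Q m := by
  rcases h with ⟨h1, h2, h3⟩ | ⟨h0, h1, h2, h3⟩
  · exact Or.inl ⟨h1, hPQ h2, hPQ h3⟩
  · exact Or.inr ⟨h0, h1, hPQ h2, hPQ h3⟩

/-- the broken pairs are diagonals of a pentagon, or `{c 0, c 4}` -/
def Pent (T : ℂ → Set (Fin 6)) (z : ℂ) (c : ZMod 5 → Fin 6) : Prop :=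
  Function.Injective c ∧ ∀ a b, MC T z a b →
    (∃ m, (a = c (m - 1) ∧ b = c (m + 1)) ∨ (a = c (m + 1) ∧ b = c (m - 1))) ∨
      (a = c 0 ∧ b = c 4) ∨ (a = c 4 ∧ b = c 0)

theorem mcs {a b : Fin 6} (h : MC T z a b) : MC T z b a := by
  obtain ⟨hab, q, hq, hT⟩ := h
  exact ⟨hab.symm, q, hq, by rw [hT, Set.pair_comm]⟩

theorem exists_lt (C : Six6 U T z) (hc : Pent T z c) {q : ℂ} (hq : dist q z = 1) :
    ∃ m, Lt T z c (T q) m := by
  obtain ⟨x, y, hxy, hsub⟩ := C.sub_pair hq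
  have hx : x ∈ T q := hsub (Or.inl rfl)
  have hy : y ∈ T q := hsub (Or.inr rfl)
  rcases hc.2 x y hxy with ⟨m, ⟨rfl, rfl⟩ | ⟨rfl, rfl⟩⟩ | ⟨rfl, rfl⟩ | ⟨rfl, rfl⟩
  · exact ⟨m, Or.inl ⟨hxy, hx, hy⟩⟩
  · exact ⟨m, Or.inl ⟨mcs hxy, hy, hx⟩⟩
  · exact ⟨1, Or.inr ⟨rfl, hxy, hx, hy⟩⟩
  · exact ⟨1, Or.inr ⟨rfl, mcs hxy, hy, hx⟩⟩

open Classical in
/-- the letter of a palette -/
def lt (T : ℂ → Set (Fin 6)) (z : ℂ) (c : ZMod 5 → Fin 6) (P : Set (Fin 6)) : ZMod 5 :=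
  if h : ∃ m, Lt T z c P m then h.choose else 0

theorem lt_spec (C : Six6 U T z) (hc : Pent T z c) (u : ℝ) :
    Lt T z c (T (pt z u)) (lt T z c (T (pt z u))) := by
  have h := exists_lt C hc (dist_pt z u)
  unfold lt
  rw [dif_pos h]
  exact h.choose_spec

/-- neighbouring letters -/
theorem lt_adj {P Q : Set (Fin 6)} (hPQ : Disjoint P Q) {m n : ZMod 5}
    (hm : Lt T z c P m) (hn : Lt T z c Q n) : n = m + 1 ∨ n = m - 1 := by
  have key : ∀ i j : ZMod 5, c i ∈ P → c j ∈ Q → i ≠ j := fun i j h1 h2 h3 =>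
    Set.disjoint_left.1 hPQ h1 (h3 ▸ h2)
  rcases hm with ⟨-, h1, h2⟩ | ⟨rfl, -, h1, h2⟩ <;> rcases hn with ⟨-, h3, h4⟩ | ⟨rfl, -, h3, h4⟩
  · have k1 := key _ _ h1 h3
    have k2 := key _ _ h1 h4
    have k3 := key _ _ h2 h3
    have k4 := key _ _ h2 h4
    clear h1 h2 h3 h4 key
    revert m n
    decide
  · have k1 := key _ _ h1 h3
    have k2 := key _ _ h1 h4
    have k3 := key _ _ h2 h3
    have k4 := key _ _ h2 h4
    clear h1 h2 h3 h4 key
    revert m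
    decide
  · have k1 := key _ _ h1 h3
    have k2 := key _ _ h1 h4
    have k3 := key _ _ h2 h3
    have k4 := key _ _ h2 h4
    clear h1 h2 h3 h4 key
    revert n
    decide
  · exact absurd rfl (key _ _ h1 h3)

/-- more than three colours -/
theorem four_mem (hc : Function.Injective c) {P : Set (Fin 6)} (hP : P.ncard ≤ 3) {i j k l : ZMod 5}
    (h1 : i ≠ j) (h2 : i ≠ k) (h3 : i ≠ l) (h4 : j ≠ k) (h5 : j ≠ l) (h6 : k ≠ l) (hi : c i ∈ P)
    (hj : c j ∈ P) (hk : c k ∈ P) (hl : c l ∈ P) : False := by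
  have hs : ({c i, c j, c k, c l} : Set (Fin 6)) ⊆ P := by
    rintro x (rfl | rfl | rfl | rfl) <;> assumption
  have hcard := Set.ncard_le_ncard hs (Set.toFinite _)
  rw [Set.ncard_insert_of_notMem (by simp [hc.eq_iff, h1, h2, h3]),
    Set.ncard_insert_of_notMem (by simp [hc.eq_iff, h4, h5]),
    Set.ncard_pair (by simpa [hc.eq_iff] using h6)] at hcard
  omega

/-- two letters of one palette -/
theorem lt_two (hc : Pent T z c) {P : Set (Fin 6)} (hP : P.ncard ≤ 3) {m n : ZMod 5}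
    (hm : Lt T z c P m) (hn : Lt T z c P n) :
    n = m ∨ n = m + 2 ∨ m = n + 2 ∨ (c 0 ∈ P ∧ c 1 ∈ P ∧ c 4 ∈ P) := by
  rcases hm with ⟨-, h1, h2⟩ | ⟨rfl, -, h1, h2⟩ <;> rcases hn with ⟨-, h3, h4⟩ | ⟨rfl, -, h3, h4⟩
  · by_cases h5 : n = m + 1 ∨ m = n + 1
    · exfalso
      rcases h5 with rfl | rfl
      · refine four_mem hc.1 hP (i := m - 1) (j := m + 1) (k := m + 1 - 1) (l := m + 1 + 1)
          ?_ ?_ ?_ ?_ ?_ ?_ h1 h2 h3 h4 <;> (clear h1 h2 h3 h4; revert m; decide)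
      · refine four_mem hc.1 hP (i := n + 1 - 1) (j := n + 1 + 1) (k := n - 1) (l := n + 1)
          ?_ ?_ ?_ ?_ ?_ ?_ h1 h2 h3 h4 <;> (clear h1 h2 h3 h4; revert n; decide)
    · have h6 : n = m ∨ n = m + 2 ∨ m = n + 2 := by
        clear h1 h2 h3 h4
        revert m n
        decide
      rcases h6 with h6 | h6 | h6
      · exact Or.inl h6
      · exact Or.inr (Or.inl h6)
      · exact Or.inr (Or.inr (Or.inl h6))
  · -- `n = 1`, the pair `{0, 4}`
    have hm5 : m = 0 ∨ m = 1 ∨ m = 2 ∨ m = 3 ∨ m = 4 := by clear h1 h2; revert m; decide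
    rcases hm5 with rfl | rfl | rfl | rfl | rfl
    · exact Or.inr (Or.inr (Or.inr ⟨h3, by simpa using h2, h4⟩))
    · exact Or.inl rfl
    · exfalso
      exact four_mem hc.1 hP (i := 0) (j := 4) (k := 2 - 1) (l := 2 + 1) (by decide) (by decide)
        (by decide) (by decide) (by decide) (by decide) h3 h4 h1 h2
    · exact Or.inr (Or.inr (Or.inl (by decide)))
    · exact Or.inr (Or.inl (by decide))
  · have hn5 : n = 0 ∨ n = 1 ∨ n = 2 ∨ n = 3 ∨ n = 4 := by clear h3 h4; revert n; decide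
    rcases hn5 with rfl | rfl | rfl | rfl | rfl
    · exact Or.inr (Or.inr (Or.inr ⟨h1, by simpa using h4, h2⟩))
    · exact Or.inl rfl
    · exfalso
      exact four_mem hc.1 hP (i := 0) (j := 4) (k := 2 - 1) (l := 2 + 1) (by decide) (by decide)
        (by decide) (by decide) (by decide) (by decide) h1 h2 h3 h4
    · exact Or.inr (Or.inl (by decide))
    · exact Or.inr (Or.inr (Or.inl (by decide)))
  · exact Or.inl rfl

/-- the palette is inside `{c 0, c 1, c 4}` -/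
theorem pal_014 (hc : Pent T z c) {P : Set (Fin 6)} (hP : P.ncard ≤ 3) (h0 : c 0 ∈ P)
    (h1 : c 1 ∈ P) (h4 : c 4 ∈ P) {i : Fin 6} (hi : i ∈ P) : i = c 0 ∨ i = c 1 ∨ i = c 4 := by
  have hs : ({c 0, c 1, c 4} : Set (Fin 6)) ⊆ P := by
    rintro x (rfl | rfl | rfl) <;> assumption
  have h3 : ({c 0, c 1, c 4} : Set (Fin 6)).ncard = 3 := by
    rw [Set.ncard_insert_of_notMem, Set.ncard_pair]
    · intro h; exact absurd (hc.1 h) (by decide)
    · rintro (h | h)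
      · exact absurd (hc.1 h) (by decide)
      · exact absurd (hc.1 h) (by decide)
  have h5 := Set.eq_of_subset_of_ncard_le hs (by rw [h3]; exact hP) (Set.toFinite _)
  rw [← h5] at hi
  exact hi

/-- a neighbour of the pair `{1, 4}` contains `0` -/
theorem nb_14 {P Q : Set (Fin 6)} (hPQ : Disjoint P Q) {n : ZMod 5} (hP : Lt T z c P 0)
    (hQ : Lt T z c Q n) : c 0 ∈ Q := by
  have key : ∀ i j : ZMod 5, c i ∈ P → c j ∈ Q → i ≠ j := fun i j h1 h2 h3 =>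
    Set.disjoint_left.1 hPQ h1 (h3 ▸ h2)
  rcases hP with ⟨-, a1, a2⟩ | ⟨h, -⟩
  · rcases hQ with ⟨-, b1, b2⟩ | ⟨-, -, b1, b2⟩
    · have e : n - 1 = 0 ∨ n + 1 = 0 := by
        have k1 := key _ _ a1 b1
        have k2 := key _ _ a1 b2
        have k3 := key _ _ a2 b1
        have k4 := key _ _ a2 b2
        clear a1 a2 b1 b2 key
        revert n
        decide
      rcases e with e | e
      · rw [e] at b1; exact b1
      · rw [e] at b2; exact b2
    · exact b1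
  · exact absurd h (by decide)

/-- a neighbour of the pair `{0, 4}` is `{1, 3}` -/
theorem nb_04 {P Q : Set (Fin 6)} (hPQ : Disjoint P Q) {n : ZMod 5} (h0 : c 0 ∈ P) (h4 : c 4 ∈ P)
    (hQ : Lt T z c Q n) : c 1 ∈ Q ∧ c 3 ∈ Q := by
  have key : ∀ j : ZMod 5, c j ∈ Q → j ≠ 0 ∧ j ≠ 4 := fun j hj =>
    ⟨fun h => Set.disjoint_left.1 hPQ h0 (h ▸ hj), fun h => Set.disjoint_left.1 hPQ h4 (h ▸ hj)⟩
  rcases hQ with ⟨-, b1, b2⟩ | ⟨-, -, b1, -⟩
  · have e : n - 1 = 1 ∧ n + 1 = 3 := by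
      have e1 := key _ b1
      have e2 := key _ b2
      clear b1 b2 key
      revert n
      decide
    rw [e.1] at b1
    rw [e.2] at b2
    exact ⟨b1, b2⟩
  · exact absurd rfl (key _ b1).1

theorem eq_triple (hc : Pent T z c) {P : Set (Fin 6)} (hP : P.ncard ≤ 3) {i j k : ZMod 5}
    (h1 : i ≠ j) (h2 : i ≠ k) (h3 : j ≠ k) (hi : c i ∈ P) (hj : c j ∈ P) (hk : c k ∈ P) :
    ({c i, c j, c k} : Set (Fin 6)) = P := by
  have hs : ({c i, c j, c k} : Set (Fin 6)) ⊆ P := by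
    rintro x (rfl | rfl | rfl) <;> assumption
  have h4 : ({c i, c j, c k} : Set (Fin 6)).ncard = 3 := by
    rw [Set.ncard_insert_of_notMem (by simp [hc.1.eq_iff, h1, h2]),
      Set.ncard_pair (by simpa [hc.1.eq_iff] using h3)]
  exact Set.eq_of_subset_of_ncard_le hs (by rw [h4]; exact hP) (Set.toFinite _)

/-- neighbours with the palettes `{0, 1, 4}` and `{0, 1, 3}` do not exist -/
theorem no_lemX (C : Six6 U T z) (hc : Pent T z c) {u0 : ℝ} (k0 : c 0 ∈ T (pt z u0))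
    (k1 : c 1 ∈ T (pt z u0)) (m0 : c 0 ∈ T (pt z (u0 + 1))) (m1 : c 1 ∈ T (pt z (u0 + 1)))
    (m3 : c 3 ∈ T (pt z (u0 + 1))) : False := by
  have hsub : T (pt z (u0 + 1)) ⊆ insert (c 3) (T (pt z u0)) := by
    intro i hi
    have h5 := eq_triple hc (C.clean _ (dist_pt z (u0 + 1))) (i := 0) (j := 1) (k := 3)
      (by decide) (by decide) (by decide) m0 m1 m3
    rw [← h5] at hi
    rcases hi with rfl | rfl | rfl
    · exact Or.inr k0
    · exact Or.inr k1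
    · exact Or.inl rfl
  obtain ⟨t1, t2⟩ := S5.H767.tri (dist_pt z (u0 + 1)) (dist_pt z u0)
  have d1 : dist (pt z (u0 + 1)) (pt z u0) = 1 := by
    rw [dist_comm]; exact dist_pt_one z u0
  have h3 : (T (pt z u0)).ncard ≤ 3 := C.clean _ (dist_pt z u0)
  have h4 : c 3 ∈ Pal U z := C.irr.sub z (C.all _)
  have h5 : dist (pt z (u0 + 1)) z = 1 := dist_pt z (u0 + 1)
  have h6 := C.irr.lemmaX d1 h3 hsub h5 h4
  rcases h6 with h6 | h6
  · exact t1 h6
  · exact t2 h6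

theorem gn_disj (C : Six6 U T z) {u : ℝ} (hg : Gn T z u) :
    Disjoint (T (pt z u)) (T (pt z (u + 1))) := by
  have h3 := hg 0
  simp only [Fin.val_zero, Nat.cast_zero, add_zero] at h3
  exact C.disj h3

theorem ev_sub (C : Six6 U T z) (u0 : ℝ) : ∀ᶠ u in 𝓝 u0, T (pt z u) ⊆ T (pt z u0) :=
  ((continuous_pt z).tendsto u0).eventually (C.irr.nhd (pt z u0))

theorem ev_sub1 (C : Six6 U T z) (u0 : ℝ) :
    ∀ᶠ u in 𝓝 u0, T (pt z (u + 1)) ⊆ T (pt z (u0 + 1)) := by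
  have hc1 : Tendsto (fun u : ℝ => u + 1) (𝓝 u0) (𝓝 (u0 + 1)) := by
    have : Continuous fun u : ℝ => u + 1 := by fun_prop
    exact this.tendsto u0
  exact hc1.eventually (ev_sub C (u0 + 1))

/-- the letters `{1, 4}` and `{0, 4}` (or `{0, 2}`) do not both accumulate at a palette
`{0, 1, 4}` -/
theorem not_both (C : Six6 U T z) (hc : Pent T z c) {u0 : ℝ} (k0 : c 0 ∈ T (pt z u0))
    (k1 : c 1 ∈ T (pt z u0)) (k4 : c 4 ∈ T (pt z u0)) :
    ¬ ((∃ᶠ u in 𝓝 u0, Gn T z u ∧ lt T z c (T (pt z u)) = 0) ∧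
        ∃ᶠ u in 𝓝 u0, Gn T z u ∧ lt T z c (T (pt z u)) = 1) := by
  rintro ⟨f0, f1⟩
  obtain ⟨u, ⟨hg, hlu⟩, hu1, hu2⟩ := (f0.and_eventually ((ev_sub C u0).and (ev_sub1 C u0))).exists
  obtain ⟨v, ⟨hg', hlv⟩, hv1, hv2⟩ := (f1.and_eventually ((ev_sub C u0).and (ev_sub1 C u0))).exists
  have sp0 := lt_spec C hc u
  have sp1 := lt_spec C hc v
  rw [hlu] at sp0
  rw [hlv] at sp1
  have m0 : c 0 ∈ T (pt z (u0 + 1)) :=
    hu2 (nb_14 (gn_disj C hg) sp0 (lt_spec C hc (u + 1)))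
  have hv0 : c 0 ∈ T (pt z v) ∧ c 4 ∈ T (pt z v) := by
    rcases sp1 with ⟨-, a1, a2⟩ | ⟨-, -, a1, a2⟩
    · have h5 := eq_triple hc (C.clean _ (dist_pt z u0)) (i := 0) (j := 1) (k := 4)
        (by decide) (by decide) (by decide) k0 k1 k4
      have h6 := hv1 a2
      rw [← h5] at h6
      rcases h6 with h6 | h6 | h6
      · exact absurd (hc.1 h6) (by decide)
      · exact absurd (hc.1 h6) (by decide)
      · exact absurd (hc.1 h6) (by decide)
    · exact ⟨a1, a2⟩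
  obtain ⟨m1, m3⟩ := nb_04 (gn_disj C hg') hv0.1 hv0.2 (lt_spec C hc (v + 1))
  exact no_lemX C hc k0 k1 m0 (hv2 m1) (hv2 m3)

theorem hval014 (C : Six6 U T z) (hc : Pent T z c) {u0 : ℝ} (k0 : c 0 ∈ T (pt z u0))
    (k1 : c 1 ∈ T (pt z u0)) (k4 : c 4 ∈ T (pt z u0)) {m : ZMod 5}
    (hm : Lt T z c (T (pt z u0)) m) : m = 0 ∨ m = 1 := by
  rcases hm with ⟨-, h3, h4⟩ | ⟨rfl, h5, -, -⟩
  · left
    have h5 := eq_triple hc (C.clean _ (dist_pt z u0)) (i := 0) (j := 1) (k := 4)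
        (by decide) (by decide) (by decide) k0 k1 k4
    rw [← h5] at h3 h4
    have e3 : m - 1 = 0 ∨ m - 1 = 1 ∨ m - 1 = 4 := by
      rcases h3 with h | h | h
      · exact Or.inl (hc.1 h)
      · exact Or.inr (Or.inl (hc.1 h))
      · exact Or.inr (Or.inr (hc.1 h))
    have e4 : m + 1 = 0 ∨ m + 1 = 1 ∨ m + 1 = 4 := by
      rcases h4 with h | h | h
      · exact Or.inl (hc.1 h)
      · exact Or.inr (Or.inl (hc.1 h))
      · exact Or.inr (Or.inr (hc.1 h))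
    clear h3 h4
    revert m
    decide
  · exact Or.inr rfl

/-- two letters `x`, `x + 2`: the third one is one of them -/
theorem third : ∀ x y : ZMod 5, (y = x ∨ y = x + 2 ∨ x = y + 2) →
    (y = x + 2 ∨ y = x + 2 + 2 ∨ x + 2 = y + 2) → y = x ∨ y = x + 2 := by decide

/-- near every time there are only two letters -/
theorem lt_loc (C : Six6 U T z) (hc : Pent T z c) (u0 : ℝ) :
    ∃ m, ∀ᶠ u in 𝓝 u0, u ∈ {u | Gn T z u} → lt T z c (T (pt z u)) = m ∨
      lt T z c (T (pt z u)) = m + 2 := by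
  have hmem : ∀ᶠ u in 𝓝 u0, Lt T z c (T (pt z u0)) (lt T z c (T (pt z u))) :=
    (ev_sub C u0).mono fun u hu => (lt_spec C hc u).mono hu
  by_cases h014 : c 0 ∈ T (pt z u0) ∧ c 1 ∈ T (pt z u0) ∧ c 4 ∈ T (pt z u0)
  · obtain ⟨k0, k1, k4⟩ := h014
    have hbad := not_both C hc k0 k1 k4
    rw [not_and_or, not_frequently, not_frequently] at hbad
    rcases hbad with hb | hb
    · refine ⟨1, ?_⟩
      filter_upwards [hb, hmem] with u hu1 hu2 hg
      rcases hval014 C hc k0 k1 k4 hu2 with h3 | h3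
      · exact absurd ⟨hg, h3⟩ hu1
      · exact Or.inl h3
    · refine ⟨0, ?_⟩
      filter_upwards [hb, hmem] with u hu1 hu2 hg
      rcases hval014 C hc k0 k1 k4 hu2 with h3 | h3
      · exact Or.inl h3
      · exact absurd ⟨hg, h3⟩ hu1
  · have htwo : ∀ m n, Lt T z c (T (pt z u0)) m → Lt T z c (T (pt z u0)) n →
        n = m ∨ n = m + 2 ∨ m = n + 2 := by
      intro m n hm hn
      rcases lt_two hc (C.clean _ (dist_pt z u0)) hm hn with h | h | h | h
      · exact Or.inl h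
      · exact Or.inr (Or.inl h)
      · exact Or.inr (Or.inr h)
      · exact absurd h h014
    obtain ⟨m, hm⟩ := exists_lt C hc (dist_pt z u0)
    by_cases h2 : ∃ n, Lt T z c (T (pt z u0)) n ∧ n ≠ m
    · obtain ⟨n, hn, hnm⟩ := h2
      obtain ⟨x, hx, hx2⟩ : ∃ x, Lt T z c (T (pt z u0)) x ∧ Lt T z c (T (pt z u0)) (x + 2) := by
        rcases htwo m n hm hn with h | h | h
        · exact absurd h hnm
        · exact ⟨m, hm, h ▸ hn⟩
        · exact ⟨n, hn, h ▸ hm⟩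
      refine ⟨x, ?_⟩
      filter_upwards [hmem] with u hu _
      exact third _ _ (htwo _ _ hx hu) (htwo _ _ hx2 hu)
    · push Not at h2
      refine ⟨m, ?_⟩
      filter_upwards [hmem] with u hu _
      exact Or.inl (h2 _ hu)

theorem gn_add {u : ℝ} (hu : Gn T z u) : Gn T z (u + 1) := hu.shift

/-- **The winding lemma at a clean six-coloured point of pentagon type.** -/
theorem wind (C : Six6 U T z) (hc : Pent T z c) :
    ∃ s : ℤ, (s = 1 ∨ s = -1) ∧ ∃ (m : ZMod 5) (v : ℕ → ℝ), (∀ k < 15, v k < v (k + 1)) ∧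
      v 15 ≤ v 0 + 6 ∧ ∀ k : ℕ, k ≤ 15 → Gn T z (v k) ∧
        Lt T z c (T (pt z (v k))) (m + 2 * (s : ZMod 5) * (k : ZMod 5)) := by
  have hadj : ∀ u ∈ {u | Gn T z u}, u + 1 ∈ {u | Gn T z u} →
      lt T z c (T (pt z (u + 1))) = lt T z c (T (pt z u)) + 1 ∨
        lt T z c (T (pt z (u + 1))) = lt T z c (T (pt z u)) - 1 := fun u hu _ =>
    lt_adj (gn_disj C hu) (lt_spec C hc u) (lt_spec C hc (u + 1))
  have hper : ∀ u ∈ {u | Gn T z u}, lt T z c (T (pt z (u + 6))) = lt T z c (T (pt z u)) := by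
    intro u _
    rw [pt_six]
  obtain ⟨s, hs, m, v, h1, h2, h3⟩ := exists_times (μ := fun u => lt T z c (T (pt z u)))
    (G := {u | Gn T z u}) gn_open C.gn_dense (lt_loc C hc) hadj hper
  refine ⟨s, hs, m, v, h1, h2, fun k hk => ?_⟩
  obtain ⟨h4, h5⟩ := h3 k hk
  refine ⟨h4, ?_⟩
  rw [← h5]
  exact lt_spec C hc (v k)

end Vale.Agent.P032.R2.H616
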