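import Vale.Agent.P032.R2.H616.NoSilent
import Vale.Agent.P032.R2.H306.Disc7

/-!
# P032 (T2*): `ActLoc` is true
-/

set_option autoImplicit false

open Set Filter Topology Metric

noncomputable section

namespace Vale.Agent.P032.R2.H616

open Vale.Agent.P032.Six Vale.Agent.P032.Words6.H704 Vale.Agent.P032.R2.H306

/-- **`ActLoc`.** -/
theorem actLoc : ActLoc := by
  intro U T h hmin z h6 hcl _ _ i
  have hall : ∀ j, j ∈ T z := by
    intro j
    have h1 : T z = univ := by
      refine Set.eq_of_subset_of_ncard_le (Set.subset_univ _) ?_ (Set.toFinite _)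
      rw [h6, Set.ncard_univ]
      simp
    rw [h1]; exact mem_univ j
  exact no_silent ⟨h, hall, hcl⟩ hmin i

end Vale.Agent.P032.R2.H616
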