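import Vale.Agent.P032.R2.H616.Disc
import Mathlib.Topology.MetricSpace.Basic
import Mathlib.Topology.MetricSpace.Pseudo.Lemmas
import Mathlib.Topology.Order.Real
import Mathlib.Topology.Baire.Lemmas

/-!
# P032: closed walks of six letters on a pentagon: the winding lemma on the circle

`μ u` : the letter at time `u` (a vertex of a five cycle, in the numbering in which neighbouring letters
differ by `±1` and the letters inside one palette are `m` and `m + 2`), defined at the times of a dense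
open set `G`.  Near every time there are only two letters `m`, `m + 2`.  The letters at the times `u` and
`u + 1` are neighbours, the letter has period `6`.  Then on an interval of length six the letters
`m, m + 2 s, m + 4 s, .., m + 30 s` (`s = 1` or `s = -1`) appear in this order.
-/

set_option autoImplicit false

open Set Filter Topology Metric

namespace Vale.Agent.P032.R2.H616

variable {μ : ℝ → ZMod 5} {G : Set ℝ}

/-- finitely many translates of a dense open set meet -/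
theorem exists_common (hGo : IsOpen G) (hGd : Dense G) (f : ℕ → ℝ) :
    ∀ n : ℕ, Dense {u : ℝ | ∀ i < n, u + f i ∈ G} ∧ IsOpen {u : ℝ | ∀ i < n, u + f i ∈ G} := by
  intro n
  induction n with
  | zero => simp
  | succ n ih =>
    have e : {u : ℝ | ∀ i < n + 1, u + f i ∈ G} =
        {u : ℝ | ∀ i < n, u + f i ∈ G} ∩ {u : ℝ | u + f n ∈ G} := by
      ext u
      simp only [mem_ofPred_eq, mem_inter_iff]
      constructor
      · intro h
        exact ⟨fun i hi => h i (by omega), h n (by omega)⟩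
      · rintro ⟨h1, h2⟩ i hi
        rcases Nat.lt_succ_iff_lt_or_eq.1 hi with h3 | rfl
        · exact h1 i h3
        · exact h2
    have ho : IsOpen {u : ℝ | u + f n ∈ G} := hGo.preimage (continuous_add_const (f n))
    have hd : Dense {u : ℝ | u + f n ∈ G} := by
      have := (Homeomorph.addRight (f n)).isOpenMap
      exact Dense.preimage hGd this
    rw [e]
    exact ⟨ih.1.inter_of_isOpen_right hd ho, ih.2.inter ho⟩

/-- a uniform neighbourhood with two letters -/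
theorem exists_delta (hloc : ∀ u0, ∃ m, ∀ᶠ u in 𝓝 u0, u ∈ G → μ u = m ∨ μ u = m + 2)
    (a b : ℝ) : ∃ δ > 0, ∀ u ∈ Icc a b, ∃ m, ∀ v, dist v u < δ → v ∈ G → μ v = m ∨ μ v = m + 2 := by
  choose m hm using hloc
  obtain ⟨δ, hδ, h1⟩ := lebesgue_number_lemma_of_metric (isCompact_Icc (a := a) (b := b))
    (c := fun u0 : ℝ => interior {u | u ∈ G → μ u = m u0 ∨ μ u = m u0 + 2})
    (fun _ => isOpen_interior) (fun u _ => mem_iUnion.2 ⟨u, mem_interior_iff_mem_nhds.2 (hm u)⟩)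
  refine ⟨δ, hδ, fun u hu => ?_⟩
  obtain ⟨i, hi⟩ := h1 u hu
  exact ⟨m i, fun v hv hG => interior_subset (hi (mem_ball.2 hv)) hG⟩

theorem step_of {x y m : ZMod 5} (hx : x = m ∨ x = m + 2) (hy : y = m ∨ y = m + 2) :
    y - x = 0 ∨ y - x = 2 ∨ y - x = 3 := by
  rcases hx with rfl | rfl <;> rcases hy with rfl | rfl
  · left; ring
  · right; left; ring
  · right; right
    have : (-2 : ZMod 5) = 3 := by decide
    rw [← this]; ring
  · left; ring

/-- **The winding lemma.**  For every small mesh the total of the moves of the letter in one turn is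
`30 c` with `c` odd. -/
theorem exists_path (hGo : IsOpen G) (hGd : Dense G)
    (hloc : ∀ u0, ∃ m, ∀ᶠ u in 𝓝 u0, u ∈ G → μ u = m ∨ μ u = m + 2)
    (hadj : ∀ u ∈ G, u + 1 ∈ G → μ (u + 1) = μ u + 1 ∨ μ (u + 1) = μ u - 1)
    (hper : ∀ u ∈ G, μ (u + 6) = μ u) {ε : ℝ} (hε : 0 < ε) :
    ∃ (u : ℝ) (N : ℕ), 0 < N ∧ 1 / (N : ℝ) < ε ∧ 0 < u ∧ u < 1 ∧
      (∀ i ≤ 6 * N, u + i / N ∈ G) ∧
      (∀ i < 6 * N, μ (u + (i + 1 : ℕ) / N) - μ (u + i / N) = 0 ∨
        μ (u + (i + 1 : ℕ) / N) - μ (u + i / N) = 2 ∨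
        μ (u + (i + 1 : ℕ) / N) - μ (u + i / N) = 3) ∧
      ∃ c : ℤ, Odd c ∧ tot (fun i => μ (u + (i : ℝ) / N)) (6 * N) = 30 * c := by
  obtain ⟨δ, hδ, hd⟩ := exists_delta hloc 0 8
  obtain ⟨n, hn⟩ := exists_nat_one_div_lt (lt_min hε hδ)
  set N : ℕ := n + 1 with hN
  have hN0 : (0 : ℝ) < N := by rw [hN]; positivity
  have hNε : 1 / (N : ℝ) < min ε δ := by
    rw [hN]; push_cast; exact hn
  obtain ⟨u, hu, hu01⟩ := ((exists_common hGo hGd (fun i => (i : ℝ) / N) (6 * N + 1)).1).exists_mem_open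
    (isOpen_Ioo (a := (0 : ℝ)) (b := 1)) ⟨1 / 2, by norm_num⟩
  have hG : ∀ i ≤ 6 * N, u + (i : ℝ) / N ∈ G := fun i hi => hu i (by omega)
  have hs : ∀ i < 6 * N, μ (u + (i + 1 : ℕ) / N) - μ (u + i / N) = 0 ∨
        μ (u + (i + 1 : ℕ) / N) - μ (u + i / N) = 2 ∨
        μ (u + (i + 1 : ℕ) / N) - μ (u + i / N) = 3 := by
    intro i hi
    have hi6 : (i : ℝ) / N ≤ 6 := by
      rw [div_le_iff₀ hN0]
      exact_mod_cast hi.le
    have hi0 : 0 ≤ (i : ℝ) / N := by positivity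
    obtain ⟨m, hm⟩ := hd (u + i / N) ⟨by linarith [hu01.1], by linarith [hu01.2]⟩
    refine step_of (hm _ (by rw [dist_self]; exact hδ) (hG i hi.le)) (hm _ ?_ (hG (i + 1) hi))
    rw [Real.dist_eq]
    have e : u + ((i + 1 : ℕ) : ℝ) / N - (u + i / N) = 1 / N := by push_cast; ring
    rw [e, abs_of_pos (by positivity)]
    exact lt_of_lt_of_le hNε (min_le_right _ _)
  refine ⟨u, N, by omega, lt_of_lt_of_le hNε (min_le_left _ _), hu01.1, hu01.2, hG, hs, ?_⟩
  refine winding (a := fun i => μ (u + (i : ℝ) / N)) (N := N) hs (fun i hi => ?_) ?_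
  · have e : u + ((i + N : ℕ) : ℝ) / N = u + (i : ℝ) / N + 1 := by
      push_cast; field_simp; ring
    have h1 := hG (i + N) (by omega)
    show μ (u + ((i + N : ℕ) : ℝ) / N) = _ ∨ μ (u + ((i + N : ℕ) : ℝ) / N) = _
    rw [e] at h1 ⊢
    exact hadj _ (hG i (by omega)) h1
  · show μ (u + ((6 * N : ℕ) : ℝ) / N) = μ (u + ((0 : ℕ) : ℝ) / N)
    have e : u + ((6 * N : ℕ) : ℝ) / N = u + ((0 : ℕ) : ℝ) / N + 6 := by
      push_cast; field_simp; ring
    rw [e]
    exact hper _ (hG 0 (by omega))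

/-- **The winding lemma, times.**  In one turn the letters `m, m + 2 s, .., m + 30 s` appear in this
order. -/
theorem exists_times (hGo : IsOpen G) (hGd : Dense G)
    (hloc : ∀ u0, ∃ m, ∀ᶠ u in 𝓝 u0, u ∈ G → μ u = m ∨ μ u = m + 2)
    (hadj : ∀ u ∈ G, u + 1 ∈ G → μ (u + 1) = μ u + 1 ∨ μ (u + 1) = μ u - 1)
    (hper : ∀ u ∈ G, μ (u + 6) = μ u) :
    ∃ s : ℤ, (s = 1 ∨ s = -1) ∧ ∃ (m : ZMod 5) (v : ℕ → ℝ), (∀ k < 15, v k < v (k + 1)) ∧
      v 15 ≤ v 0 + 6 ∧ ∀ k : ℕ, k ≤ 15 → v k ∈ G ∧ μ (v k) = m + 2 * (s : ZMod 5) * (k : ZMod 5) := by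
  obtain ⟨u, N, hN, -, -, -, hG, hs, c, ⟨d, hd⟩, htot⟩ :=
    exists_path hGo hGd hloc hadj hper one_pos
  have hN0 : (0 : ℝ) < N := by exact_mod_cast hN
  obtain ⟨s, hs1, hM⟩ : ∃ s : ℤ, (s = 1 ∨ s = -1) ∧
      30 ≤ s * tot (fun i => μ (u + (i : ℝ) / N)) (6 * N) := by
    rw [htot]
    rcases le_or_gt 0 d with h | h
    · exact ⟨1, Or.inl rfl, by omega⟩
    · exact ⟨-1, Or.inr rfl, by omega⟩
  obtain ⟨w, hw0, hw1, hw2, hw3⟩ := hitting hs1 hM
  refine ⟨s, hs1, μ u, fun k => u + (w k : ℝ) / N, fun k hk => ?_, ?_, fun k hk => ?_⟩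
  · have : (w k : ℝ) < w (k + 1) := by exact_mod_cast hw1 k hk
    have h2 : (w k : ℝ) / N < w (k + 1) / N := by gcongr
    show u + (w k : ℝ) / N < u + (w (k + 1) : ℝ) / N
    linarith
  · have h1 : (w 15 : ℝ) / N ≤ 6 := by
      rw [div_le_iff₀ hN0]
      exact_mod_cast hw2 15 le_rfl
    show u + (w 15 : ℝ) / N ≤ u + (w 0 : ℝ) / N + 6
    rw [hw0]
    simp only [Nat.cast_zero, zero_div, add_zero]
    linarith
  · refine ⟨hG _ (hw2 k hk), ?_⟩
    have h1 := tot_cast (a := fun i => μ (u + (i : ℝ) / N)) hs (hw2 k hk)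
    have h2 := hw3 k hk
    have h3 : tot (fun i => μ (u + (i : ℝ) / N)) (w k) = s * (2 * k) := by
      have e : s * s = 1 := by rcases hs1 with rfl | rfl <;> norm_num
      calc tot (fun i => μ (u + (i : ℝ) / N)) (w k)
          = s * s * tot (fun i => μ (u + (i : ℝ) / N)) (w k) := by rw [e, one_mul]
        _ = s * (2 * k) := by rw [mul_assoc, h2]
    rw [h3] at h1
    push_cast at h1
    simp only [zero_div, add_zero] at h1
    show μ (u + (w k : ℝ) / N) = _
    linear_combination -h1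

end Vale.Agent.P032.R2.H616
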