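import Mathlib.Data.ZMod.Basic
import Mathlib.Algebra.BigOperators.Group.Finset.Basic
import Mathlib.Tactic

/-!
# P032: closed walks of six letters on a pentagon: the discrete winding lemma

`a i` : the letter (a vertex of a five cycle) at time `i / N`.  In one step the letter moves by `0`, `2`
or `-2`; the letters at the times `i` and `i + N` are neighbours (they differ by `1` or `-1`); after
`6 N` steps the letter is the same.  Then the total of the moves is `30 c` with `c` odd.
-/

set_option autoImplicit false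

namespace Vale.Agent.P032.R2.H616

/-- the integer move of a step of the letter -/
def st (x : ZMod 5) : ℤ := if x = 2 then 2 else if x = 3 then -2 else 0

/-- the total of the moves -/
def tot (a : ℕ → ZMod 5) (j : ℕ) : ℤ := ∑ i ∈ Finset.range j, st (a (i + 1) - a i)

theorem st_bd (x : ZMod 5) : -2 ≤ st x ∧ st x ≤ 2 := by
  unfold st; split_ifs <;> omega

theorem st_even (x : ZMod 5) : 2 ∣ st x := by
  unfold st; split_ifs <;> decide

theorem st_cast : ∀ x : ZMod 5, x = 0 ∨ x = 2 ∨ x = 3 → ((st x : ℤ) : ZMod 5) = x := by decide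

theorem st_vals (x : ZMod 5) : st x = 0 ∨ st x = 2 ∨ st x = -2 := by
  unfold st; split_ifs <;> simp

theorem tot_zero (a : ℕ → ZMod 5) : tot a 0 = 0 := by simp [tot]

theorem tot_succ (a : ℕ → ZMod 5) (j : ℕ) : tot a (j + 1) = tot a j + st (a (j + 1) - a j) := by
  simp [tot, Finset.sum_range_succ]

theorem tot_even (a : ℕ → ZMod 5) (j : ℕ) : 2 ∣ tot a j := by
  induction j with
  | zero => rw [tot_zero]; exact dvd_zero _
  | succ j ih => rw [tot_succ]; exact dvd_add ih (st_even _)

variable {a : ℕ → ZMod 5} {N : ℕ}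

theorem tot_cast {M : ℕ} (hs : ∀ i < M, a (i + 1) - a i = 0 ∨ a (i + 1) - a i = 2 ∨
    a (i + 1) - a i = 3) {j : ℕ} (hj : j ≤ M) : ((tot a j : ℤ) : ZMod 5) = a j - a 0 := by
  induction j with
  | zero => rw [tot_zero]; simp
  | succ j ih =>
    rw [tot_succ]
    push_cast
    rw [ih (by omega), st_cast _ (hs j (by omega))]
    ring

theorem mod5_of_cast {x : ℤ} {r : ℤ} (h : ((x : ℤ) : ZMod 5) = ((r : ℤ) : ZMod 5)) :
    (x - r) % 5 = 0 := by
  have h1 : ((x - r : ℤ) : ZMod 5) = 0 := by push_cast; rw [h]; ring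
  rw [ZMod.intCast_zmod_eq_zero_iff_dvd] at h1
  push_cast at h1
  exact Int.emod_eq_zero_of_dvd h1

/-- **The discrete winding lemma.** -/
theorem winding (hs : ∀ i < 6 * N, a (i + 1) - a i = 0 ∨ a (i + 1) - a i = 2 ∨
      a (i + 1) - a i = 3)
    (hadj : ∀ i ≤ 5 * N, a (i + N) = a i + 1 ∨ a (i + N) = a i - 1)
    (hper : a (6 * N) = a 0) : ∃ c : ℤ, Odd c ∧ tot a (6 * N) = 30 * c := by
  -- the difference over one sixth
  have hD : ∀ i ≤ 5 * N, ∃ q : ℤ, tot a (i + N) - tot a i = 10 * q + 4 ∨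
      tot a (i + N) - tot a i = 10 * q + 6 := by
    intro i hi
    have h1 := tot_cast hs (j := i + N) (by omega)
    have h2 := tot_cast hs (j := i) (by omega)
    have h3 := tot_even a (i + N)
    have h4 := tot_even a i
    have h5 : (((tot a (i + N) - tot a i : ℤ)) : ZMod 5) = a (i + N) - a i := by
      push_cast; rw [h1, h2]; ring
    rcases hadj i hi with h6 | h6
    · have h7 : (((tot a (i + N) - tot a i : ℤ)) : ZMod 5) = ((1 : ℤ) : ZMod 5) := by
        rw [h5, h6]; push_cast; ring
      have h8 := mod5_of_cast h7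
      refine ⟨(tot a (i + N) - tot a i - 6) / 10, ?_⟩
      omega
    · have h7 : (((tot a (i + N) - tot a i : ℤ)) : ZMod 5) = ((-1 : ℤ) : ZMod 5) := by
        rw [h5, h6]; push_cast; ring
      have h8 := mod5_of_cast h7
      refine ⟨(tot a (i + N) - tot a i - 4) / 10, ?_⟩
      omega
  obtain ⟨q, hq⟩ := hD 0 (by omega)
  have hall : ∀ i ≤ 5 * N, tot a (i + N) - tot a i = 10 * q + 4 ∨
      tot a (i + N) - tot a i = 10 * q + 6 := by
    intro i
    induction i with
    | zero => intro _; exact hq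
    | succ i ih =>
      intro hi
      have h1 := ih (by omega)
      obtain ⟨q', hq'⟩ := hD (i + 1) hi
      have e1 : tot a (i + 1 + N) = tot a (i + N) + st (a (i + N + 1) - a (i + N)) := by
        rw [← tot_succ]; congr 1; omega
      have e2 := tot_succ a i
      have b1 := st_bd (a (i + N + 1) - a (i + N))
      have b2 := st_bd (a (i + 1) - a i)
      have : q' = q := by omega
      rw [← this]; exact hq'
  have t0 := hall 0 (by omega)
  have t1 := hall N (by omega)
  have t2 := hall (2 * N) (by omega)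
  have t3 := hall (3 * N) (by omega)
  have t4 := hall (4 * N) (by omega)
  have t5 := hall (5 * N) (by omega)
  have e0 : tot a (0 + N) = tot a N := by congr 1; omega
  have e1 : tot a (N + N) = tot a (2 * N) := by congr 1; omega
  have e2 : tot a (2 * N + N) = tot a (3 * N) := by congr 1; omega
  have e3 : tot a (3 * N + N) = tot a (4 * N) := by congr 1; omega
  have e4 : tot a (4 * N + N) = tot a (5 * N) := by congr 1; omega
  have e5 : tot a (5 * N + N) = tot a (6 * N) := by congr 1; omega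
  have z0 := tot_zero a
  have h6 := tot_cast hs (j := 6 * N) le_rfl
  have h7 : ((tot a (6 * N) : ℤ) : ZMod 5) = ((0 : ℤ) : ZMod 5) := by
    rw [h6, hper]; simp
  have h8 := mod5_of_cast h7
  refine ⟨2 * q + 1, ⟨q, rfl⟩, ?_⟩
  omega

/-- **Hitting times**: the letters `a 0 + 2 s k`, `k = 0, .., 15`, in this order -/
theorem hitting {M : ℕ} {s : ℤ} (hs1 : s = 1 ∨ s = -1) (hM : 30 ≤ s * tot a M) :
    ∃ v : ℕ → ℕ, v 0 = 0 ∧ (∀ k < 15, v k < v (k + 1)) ∧ (∀ k ≤ 15, v k ≤ M) ∧
      ∀ k : ℕ, k ≤ 15 → s * tot a (v k) = 2 * (k : ℤ) := by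
  have hev : ∀ j, 2 ∣ s * tot a j := fun j => (tot_even a j).mul_left s
  have hst : ∀ j, s * tot a (j + 1) ≤ s * tot a j + 2 := by
    intro j
    rw [tot_succ]
    have h1 := st_bd (a (j + 1) - a j)
    rcases hs1 with rfl | rfl <;> linarith
  classical
  have hex : ∀ k : ℕ, k ≤ 15 → ∃ i, 2 * (k : ℤ) ≤ s * tot a i := fun k hk => ⟨M, by
    have : (k : ℤ) ≤ 15 := by exact_mod_cast hk
    linarith⟩
  set v : ℕ → ℕ := fun k => if h : ∃ i, 2 * (k : ℤ) ≤ s * tot a i then Nat.find h else 0 with hv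
  have hv1 : ∀ k : ℕ, k ≤ 15 → 2 * (k : ℤ) ≤ s * tot a (v k) := by
    intro k hk
    have h := hex k hk
    have : v k = Nat.find h := by rw [hv]; simp only [dif_pos h]
    rw [this]; exact Nat.find_spec h
  have hv2 : ∀ k : ℕ, k ≤ 15 → ∀ i, 2 * (k : ℤ) ≤ s * tot a i → v k ≤ i := by
    intro k hk i hi
    have h := hex k hk
    have : v k = Nat.find h := by rw [hv]; simp only [dif_pos h]
    rw [this]; exact Nat.find_min' h hi
  have hv0 : v 0 = 0 := Nat.le_zero.1 (hv2 0 (by omega) 0 (by rw [tot_zero]; simp))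
  have hval : ∀ k : ℕ, k ≤ 15 → s * tot a (v k) = 2 * (k : ℤ) := by
    intro k hk
    have h1 := hv1 k hk
    rcases Nat.eq_zero_or_pos (v k) with h0 | h0
    · rw [h0, tot_zero] at h1 ⊢
      have : (0 : ℤ) ≤ k := Int.natCast_nonneg k
      simp at h1 ⊢
      omega
    · obtain ⟨j, hj⟩ : ∃ j, v k = j + 1 := ⟨v k - 1, by omega⟩
      have h2 : ¬ 2 * (k : ℤ) ≤ s * tot a j := fun h3 => by
        have := hv2 k hk j h3
        omega
      have h3 := hst j
      have h4 := hev j
      rw [← hj] at h3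
      omega
  refine ⟨v, hv0, fun k hk => ?_, fun k hk => hv2 k hk M ?_, hval⟩
  · have h1 : v k ≤ v (k + 1) := hv2 k (by omega) _ (by
      have := hv1 (k + 1) (by omega)
      push_cast at this
      linarith)
    refine lt_of_le_of_ne h1 fun h2 => ?_
    have h3 := hval k (by omega)
    have h4 := hval (k + 1) (by omega)
    rw [← h2, h3] at h4
    push_cast at h4
    omega
  · have : (k : ℤ) ≤ 15 := by exact_mod_cast hk
    linarith

end Vale.Agent.P032.R2.H616
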