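import Vale.Agent.P032.R2.H962.SilTop
import Vale.Agent.P032.R2.H62.Fin2
import Vale.Agent.P032.R2.H758.Five

/-!
# P032 (T2*): a clean six-coloured point has no silent colour

Every colour of a clean six-coloured point `z` is in a palette of two colours on the unit circle
of `z`: `no_silent`, without further hypotheses.
-/

set_option autoImplicit false

open Set Filter Topology Metric

noncomputable section

namespace Vale.Agent.P032.R2.H616

open Vale.Agent.P032.Six Vale.Agent.P032.Words6.H704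

variable {U : Fin 6 → Set ℂ} {T : ℂ → Set (Fin 6)} {z : ℂ}

/-- **No silent colour at a clean six-coloured point.** -/
theorem no_silent (C : Six6 U T z)
    (hmin : ∀ z, 4 ≤ (T z).ncard → ∀ s, s ⊆ T z → s ≠ T z →
      ¬ ∀ᶠ w in 𝓝 z, ∃ i ∈ s, w ∈ U i ∨ (w ∈ XX U ∧ i ∈ Pal U w)) (s : Fin 6) :
    ∃ q, dist q z = 1 ∧ s ∈ T q ∧ (T q).ncard = 2 :=
  H962.no_silent_of H62F.fin2 C hmin fun hs => H758.ne_five C hmin hs

/-- the same as a broken pair -/
theorem no_silent' (C : Six6 U T z)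
    (hmin : ∀ z, 4 ≤ (T z).ncard → ∀ s, s ⊆ T z → s ≠ T z →
      ¬ ∀ᶠ w in 𝓝 z, ∃ i ∈ s, w ∈ U i ∨ (w ∈ XX U ∧ i ∈ Pal U w)) (s : Fin 6) :
    ∃ j, MC T z s j := by
  obtain ⟨q, hq, hs, h2⟩ := no_silent C hmin s
  obtain ⟨a, b, hab, hT⟩ := Set.ncard_eq_two.1 h2
  rw [hT] at hs
  rcases hs with rfl | rfl
  · exact ⟨b, hab, q, hq, hT⟩
  · exact ⟨a, hab.symm, q, hq, by rw [hT]; exact Set.pair_comm _ _⟩

end Vale.Agent.P032.R2.H616
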