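import Vale.Agent.P032.R2.H962.SilDefs2
import Vale.Agent.P032.R2.H306.RInd
import Mathlib.Order.Filter.Ultrafilter.Defs

/-!
# P032 (T2*): the end of the analysis of a silent colour

`sil_end` : words and chord colours at generic times, with the local relations of the finite system
`Fin2`, do not exist.  The chords are indexed by `m → ∞`; a free ultrafilter on `m` gives one value of
the invariant for every generic time, this value is locally constant, and it changes under the shift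
by one.
-/

set_option autoImplicit false

open Set Filter Topology

namespace Vale.Agent.P032.R2.H616

open Vale.Agent.P032.R2.H962 Vale.Agent.P032.R2.H306

theorem sil_end (hF : Fin2) {G : Set ℝ} (hGo : IsOpen G) (hGd : Dense G)
    (hG1 : ∀ u ∈ G, u + 1 ∈ G) (W : ℝ → Fin 6 → Fin 6)
    (hW : ∀ u, W (u + 1) = fun k => W u (k + 1)) {t₀ : ℝ} (κ : ℕ → ℝ → Fin 5)
    (hSt : ∀ u ∈ G, t₀ < u → u < t₀ + 2 → ∀ᶠ m in atTop, St2 (W u) ![κ m u, κ m (u + 1)])
    (hst : ∀ t ∈ Ioo t₀ (t₀ + 2), ∃ η > 0, ∀ u ∈ G, ∀ v ∈ G, |u - t| < η → |v - t| < η →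
      t₀ < u → u < t₀ + 2 → t₀ < v → v < t₀ + 2 → ∀ᶠ m in atTop, Nb (W u) (W v) ∧
        ∀ a, Dir2 (W u) (W v) ![κ m u, κ m (u + 1)] ![κ m v, κ m (v + 1)] a) : False := by
  obtain ⟨inv, hA, hB⟩ := hF
  set F : Ultrafilter ℕ := hyperfilter ℕ with hFdef
  have hFle : (F : Filter ℕ) ≤ atTop := Nat.hyperfilter_le_atTop
  set P : ℝ → ℕ → Prop := fun u n =>
    ∀ᶠ m in (F : Filter ℕ), inv (W u) ![κ m u, κ m (u + 1)] = n with hP
  have hex : ∀ u, ∃ n, P u n := by
    intro u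
    obtain ⟨x, hx⟩ := (F.map fun m => (![κ m u, κ m (u + 1)] : Fin 2 → Fin 5)).eq_pure_of_finite
    have h1 : ∀ᶠ y in ((F.map fun m => (![κ m u, κ m (u + 1)] : Fin 2 → Fin 5) :
        Ultrafilter (Fin 2 → Fin 5)) : Filter (Fin 2 → Fin 5)), y = x := by
      rw [hx]; exact Filter.eventually_pure.2 rfl
    have h2 : ∀ᶠ m in (F : Filter ℕ), (![κ m u, κ m (u + 1)] : Fin 2 → Fin 5) = x := h1
    exact ⟨inv (W u) x, h2.mono fun m hm => by rw [hm]⟩
  obtain ⟨u, hu, huG⟩ := hGd.inter_open_nonempty (Ioo t₀ (t₀ + 1)) isOpen_Ioo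
    ⟨t₀ + 1 / 2, by constructor <;> linarith⟩
  have hu1 : t₀ < u := hu.1
  have hu2 : u < t₀ + 1 := hu.2
  obtain ⟨n, hn⟩ := hex u
  obtain ⟨n', hn'⟩ := hex (u + 1)
  have hnn : n = n' := by
    refine const_generic (a := t₀) (b := t₀ + 2) (P := P) hGd hGo (fun u _ _ _ => hex u) ?_ huG
      (hG1 u huG) hu1 (by linarith) (by linarith) (by linarith) hn hn'
    intro t ht
    obtain ⟨η, hη, h⟩ := hst t ht
    refine ⟨η, hη, fun u v hu hv h1 h2 h3 h4 h5 h6 m n hm hn => ?_⟩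
    have e1 := (h u hu v hv h1 h2 h3 h4 h5 h6).filter_mono hFle
    have e2 := (hSt u hu h3 h4).filter_mono hFle
    have e3 := (hSt v hv h5 h6).filter_mono hFle
    obtain ⟨k, hk⟩ := (e1.and (e2.and (e3.and (hm.and hn)))).exists
    rw [← hk.2.2.2.1, ← hk.2.2.2.2]
    exact hA _ _ _ _ hk.2.1 hk.2.2.1 hk.1.1 hk.1.2
  subst hnn
  have e1 := (hSt u huG hu1 (by linarith)).filter_mono hFle
  have e2 := (hSt (u + 1) (hG1 u huG) (by linarith) (by linarith)).filter_mono hFle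
  obtain ⟨k, hk⟩ := (e1.and (e2.and (hn.and hn'))).exists
  obtain ⟨k1, k2, k3, k4⟩ := hk
  rw [hW] at k2 k4
  have := hB (W u) ![κ k u, κ k (u + 1)] (κ k (u + 1 + 1)) k1 k2
  exact this (k4.trans k3.symm)

end Vale.Agent.P032.R2.H616
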