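import Mathlib.Data.ZMod.Basic
import Mathlib.Data.Set.Card
import Mathlib.Topology.Order.IntermediateValue
import Mathlib.Topology.MetricSpace.Basic
import Mathlib.Topology.Algebra.Order.Group
import Mathlib.Tactic

/-!
# P032: palettes on a circle and tracks

`Circ E Q G` : `Q u` are the active colours (a subset of `ZMod 5`) of the point of the circle at time
`u` (period six); `E i j` : `{i, j}` is an exact pair.  Every palette contains an exact pair and has at
most three colours; at the times of the dense set `G` the palette is locally constant and the palettes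
of neighbours are disjoint; a palette of three colours has two colours outside the neighbour palette.

`Track E Q η a b p q X` : a curve of points near the centre, one over every line `t ∈ [a, b]`, with the
two common neighbours at the times `p t` and `q t`, `t ≤ p t < t + η`, `t + 3 - η < q t ≤ t + 3`: the
first neighbour `p` arrives before the second one `q`.  `X t` : its palette.
-/

set_option autoImplicit false

open Set Filter Topology

namespace Vale.Agent.P032.R2.H616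

/-- palettes on a circle of length six -/
structure Circ (E : ZMod 5 → ZMod 5 → Prop) (Q : ℝ → Set (ZMod 5)) (G : Set ℝ) : Prop where
  usc : ∀ u0, ∀ᶠ u in 𝓝 u0, Q u ⊆ Q u0
  card : ∀ u, (Q u).ncard ≤ 3
  per : ∀ u, Q (u + 6) = Q u
  pair : ∀ u, ∃ i j, E i j ∧ i ∈ Q u ∧ j ∈ Q u
  gd : Dense G
  g1 : ∀ u ∈ G, u + 1 ∈ G
  g2 : ∀ u ∈ G, u - 1 ∈ G
  loc : ∀ u ∈ G, ∀ᶠ v in 𝓝 u, Q v = Q u
  disj : ∀ u ∈ G, Disjoint (Q u) (Q (u + 1))
  lx : ∀ u, (Q (u + 1)).ncard = 3 → ∀ t, ¬ Q (u + 1) ⊆ insert t (Q u)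
  rx : ∀ u, (Q u).ncard = 3 → ∀ t, ¬ Q u ⊆ insert t (Q (u + 1))

/-- a curve of points near the centre -/
structure Track (E : ZMod 5 → ZMod 5 → Prop) (Q : ℝ → Set (ZMod 5)) (η a b : ℝ) (p q : ℝ → ℝ)
    (X : ℝ → Set (ZMod 5)) : Prop where
  pc : ContinuousOn p (Icc a b)
  qc : ContinuousOn q (Icc a b)
  p1 : ∀ t ∈ Icc a b, t ≤ p t
  p2 : ∀ t ∈ Icc a b, p t < t + η
  q1 : ∀ t ∈ Icc a b, t + 3 - η < q t
  q2 : ∀ t ∈ Icc a b, q t ≤ t + 3
  pq : ∀ t ∈ Icc a b, q t < p t + 3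
  usc : ∀ t0 ∈ Icc a b, ∀ᶠ t in 𝓝[Icc a b] t0, X t ⊆ X t0
  ne : ∀ t ∈ Icc a b, (X t).Nonempty
  two : ∀ t ∈ Icc a b, (X t).ncard ≤ 2
  F : ∀ t ∈ Icc a b, ∀ i ∈ X t, ∀ j ∈ X t, ¬ E i j
  Lp : ∀ t ∈ Icc a b, ∀ i, (∀ᶠ v in 𝓝 (p t), i ∈ Q v) → i ∉ X t
  Lq : ∀ t ∈ Icc a b, ∀ i, (∀ᶠ v in 𝓝 (q t), i ∈ Q v) → i ∉ X t
  Sp : ∀ t ∈ Icc a b, ¬ X t ⊆ Q (p t)
  Sq : ∀ t ∈ Icc a b, ¬ X t ⊆ Q (q t)

/-- tracks of arbitrarily small lag over the lines of an open half circle -/
def Tracks (E : ZMod 5 → ZMod 5 → Prop) (Q : ℝ → Set (ZMod 5)) (y : ℝ) : Prop :=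
  ∀ η > 0, ∀ a b, y < a → b < y + 3 → ∃ p q X, Track E Q η a b p q X

/-- the exact pairs of the pentagon -/
def E5 (i j : ZMod 5) : Prop := j = i + 1 ∨ i = j + 1

/-- the exact pairs of the house -/
def E6 (i j : ZMod 5) : Prop := j = i + 1 ∨ i = j + 1 ∨ (i = 0 ∧ j = 2) ∨ (i = 2 ∧ j = 0)

instance (i j : ZMod 5) : Decidable (E5 i j) := inferInstanceAs (Decidable (_ ∨ _))
instance (i j : ZMod 5) : Decidable (E6 i j) := inferInstanceAs (Decidable (_ ∨ _ ∨ _ ∨ _))

variable {E : ZMod 5 → ZMod 5 → Prop} {Q : ℝ → Set (ZMod 5)} {G : Set ℝ}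

/-- reflection of the circle -/
theorem Circ.refl (C : Circ E Q G) : Circ E (fun u => Q (-u)) {u | -u ∈ G} where
  usc u0 := by
    have h1 : Tendsto (fun u : ℝ => -u) (𝓝 u0) (𝓝 (-u0)) := continuous_neg.tendsto u0
    exact h1.eventually (C.usc (-u0))
  card u := C.card _
  per u := by
    have h := C.per (-(u + 6))
    show Q (-(u + 6)) = Q (-u)
    rw [← h]; congr 1; ring
  pair u := C.pair _
  gd := by
    have := C.gd.preimage (Homeomorph.neg ℝ).isOpenMap
    exact this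
  g1 u hu := by
    have h := C.g2 (-u) hu
    show -(u + 1) ∈ G
    have e : -(u + 1) = -u - 1 := by ring
    rw [e]; exact h
  g2 u hu := by
    have h := C.g1 (-u) hu
    show -(u - 1) ∈ G
    have e : -(u - 1) = -u + 1 := by ring
    rw [e]; exact h
  loc u hu := by
    have h1 : Tendsto (fun v : ℝ => -v) (𝓝 u) (𝓝 (-u)) := continuous_neg.tendsto u
    exact h1.eventually (C.loc (-u) hu)
  disj u hu := by
    have h := C.disj (-u - 1) (C.g2 _ hu)
    show Disjoint (Q (-u)) (Q (-(u + 1)))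
    have e1 : -(u + 1) = -u - 1 := by ring
    have e2 : -u - 1 + 1 = -u := by ring
    rw [e1]
    rw [e2] at h
    exact h.symm
  lx u hu t := by
    have e1 : -(u + 1) = -u - 1 := by ring
    have h := C.rx (-u - 1)
    show ¬ Q (-(u + 1)) ⊆ insert t (Q (-u))
    have hu : (Q (-(u + 1))).ncard = 3 := hu
    rw [e1] at hu ⊢
    have h2 := h hu t
    have e2 : -u - 1 + 1 = -u := by ring
    rwa [e2] at h2
  rx u hu t := by
    have e1 : -(u + 1) = -u - 1 := by ring
    have e2 : -u - 1 + 1 = -u := by ring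
    have h := C.lx (-u - 1)
    rw [e2] at h
    show ¬ Q (-u) ⊆ insert t (Q (-(u + 1)))
    rw [e1]
    exact h hu t

/-- reflection of a track -/
theorem Track.refl {η a b : ℝ} {p q : ℝ → ℝ} {X : ℝ → Set (ZMod 5)} (T : Track E Q η a b p q X) :
    Track E (fun u => Q (-u)) η (-b - 3) (-a - 3) (fun t => -q (-t - 3)) (fun t => -p (-t - 3))
      (fun t => X (-t - 3)) := by
  have hm : ∀ t ∈ Icc (-b - 3) (-a - 3), -t - 3 ∈ Icc a b := fun t ht =>
    ⟨by linarith [ht.2], by linarith [ht.1]⟩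
  have hmap : MapsTo (fun t : ℝ => -t - 3) (Icc (-b - 3) (-a - 3)) (Icc a b) := hm
  have hcont : ContinuousOn (fun t : ℝ => -t - 3) (Icc (-b - 3) (-a - 3)) := by fun_prop
  refine ⟨(T.qc.comp hcont hmap).neg, (T.pc.comp hcont hmap).neg, fun t ht => ?_, fun t ht => ?_,
    fun t ht => ?_, fun t ht => ?_, fun t ht => ?_, fun t ht => ?_, fun t ht => T.ne _ (hm t ht),
    fun t ht => T.two _ (hm t ht), fun t ht => T.F _ (hm t ht), fun t ht i hi => ?_,
    fun t ht i hi => ?_, fun t ht => ?_, fun t ht => ?_⟩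
  · linarith [T.q2 _ (hm t ht)]
  · linarith [T.q1 _ (hm t ht)]
  · linarith [T.p2 _ (hm t ht)]
  · linarith [T.p1 _ (hm t ht)]
  · linarith [T.pq _ (hm t ht)]
  · have h1 := T.usc _ (hm t ht)
    have h2 : Tendsto (fun t : ℝ => -t - 3) (𝓝[Icc (-b - 3) (-a - 3)] t) (𝓝[Icc a b] (-t - 3)) :=
      tendsto_nhdsWithin_of_tendsto_nhds_of_eventually_within _ (hcont t ht)
        (eventually_nhdsWithin_of_forall fun x hx => hm x hx)
    exact h2.eventually h1
  · refine T.Lq _ (hm t ht) i ?_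
    have h1 : Tendsto (fun v : ℝ => -v) (𝓝 (q (-t - 3))) (𝓝 (-q (-t - 3))) :=
      continuous_neg.tendsto _
    filter_upwards [h1.eventually hi] with v hv
    simpa using hv
  · refine T.Lp _ (hm t ht) i ?_
    have h1 : Tendsto (fun v : ℝ => -v) (𝓝 (p (-t - 3))) (𝓝 (-p (-t - 3))) :=
      continuous_neg.tendsto _
    filter_upwards [h1.eventually hi] with v hv
    simpa using hv
  · simpa using T.Sq _ (hm t ht)
  · simpa using T.Sp _ (hm t ht)

theorem Tracks.refl {y : ℝ} (h : Tracks E Q y) : Tracks E (fun u => Q (-u)) (-y - 6) := by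
  intro η hη a b ha hb
  obtain ⟨p, q, X, T⟩ := h η hη (-b - 3) (-a - 3) (by linarith) (by linarith)
  have := T.refl
  have e1 : -(-a - 3) - 3 = a := by ring
  have e2 : -(-b - 3) - 3 = b := by ring
  rw [e1, e2] at this
  exact ⟨_, _, _, this⟩

/-- renaming of the colours -/
theorem Circ.ren (C : Circ E Q G) (σ : Equiv.Perm (ZMod 5)) (hσ : ∀ i j, E i j → E (σ i) (σ j)) :
    Circ E (fun u => σ '' Q u) G where
  usc u0 := (C.usc u0).mono fun u hu => image_mono hu
  card u := by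
    show (σ '' Q u).ncard ≤ 3
    rw [Set.ncard_image_of_injective _ σ.injective]; exact C.card u
  per u := by show σ '' Q (u + 6) = σ '' Q u; rw [C.per]
  pair u := by
    obtain ⟨i, j, h1, h2, h3⟩ := C.pair u
    exact ⟨σ i, σ j, hσ i j h1, mem_image_of_mem _ h2, mem_image_of_mem _ h3⟩
  gd := C.gd
  g1 := C.g1
  g2 := C.g2
  loc u hu := (C.loc u hu).mono fun v hv => by show σ '' Q v = σ '' Q u; rw [hv]
  disj u hu := (disjoint_image_iff σ.injective).2 (C.disj u hu)
  lx u hu t h := by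
    have hu : (σ '' Q (u + 1)).ncard = 3 := hu
    rw [Set.ncard_image_of_injective _ σ.injective] at hu
    refine C.lx u hu (σ.symm t) fun i hi => ?_
    rcases h (mem_image_of_mem σ hi) with h1 | h1
    · exact Or.inl (by rw [← h1, Equiv.symm_apply_apply])
    · exact Or.inr ((σ.injective.mem_set_image).1 h1)
  rx u hu t h := by
    have hu : (σ '' Q u).ncard = 3 := hu
    rw [Set.ncard_image_of_injective _ σ.injective] at hu
    refine C.rx u hu (σ.symm t) fun i hi => ?_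
    rcases h (mem_image_of_mem σ hi) with h1 | h1
    · exact Or.inl (by rw [← h1, Equiv.symm_apply_apply])
    · exact Or.inr ((σ.injective.mem_set_image).1 h1)

theorem Track.ren {η a b : ℝ} {p q : ℝ → ℝ} {X : ℝ → Set (ZMod 5)} (T : Track E Q η a b p q X)
    (σ : Equiv.Perm (ZMod 5)) (hσ : ∀ i j, E (σ i) (σ j) → E i j) :
    Track E (fun u => σ '' Q u) η a b p q (fun t => σ '' X t) := by
  have key : ∀ (x : ℝ) (i : ZMod 5), (∀ᶠ v in 𝓝 x, i ∈ σ '' Q v) →
      ∀ᶠ v in 𝓝 x, σ.symm i ∈ Q v := fun x i h => h.mono fun v hv => by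
    obtain ⟨j, hj, rfl⟩ := hv
    rwa [Equiv.symm_apply_apply]
  refine ⟨T.pc, T.qc, T.p1, T.p2, T.q1, T.q2, T.pq,
    fun t ht => (T.usc t ht).mono fun v hv => image_mono hv, fun t ht => (T.ne t ht).image _,
    fun t ht => ?_, fun t ht i hi j hj hE => ?_, fun t ht i hi hiX => ?_,
    fun t ht i hi hiX => ?_, fun t ht h => ?_, fun t ht h => ?_⟩
  · show (σ '' X t).ncard ≤ 2
    rw [Set.ncard_image_of_injective _ σ.injective]; exact T.two t ht
  · obtain ⟨i, hi, rfl⟩ := hi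
    obtain ⟨j, hj, rfl⟩ := hj
    exact T.F t ht i hi j hj (hσ i j hE)
  · obtain ⟨j, hj, rfl⟩ := hiX
    refine T.Lp t ht j ?_ hj
    have := key _ _ hi
    simpa using this
  · obtain ⟨j, hj, rfl⟩ := hiX
    refine T.Lq t ht j ?_ hj
    have := key _ _ hi
    simpa using this
  · exact T.Sp t ht ((image_subset_image_iff σ.injective).1 h)
  · exact T.Sq t ht ((image_subset_image_iff σ.injective).1 h)

end Vale.Agent.P032.R2.H616
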